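import Vale.Agent.P199.Select

namespace Vale.Agent.Results.P199.Kurosh

/-- There is a division ring that is algebraic over its center, generated by two elements as an
algebra over its center, and not finite dimensional over its center. -/
theorem result : ∃ (D : Type) (_ : DivisionRing D),
    Algebra.IsAlgebraic (Subring.center D) D ∧
    ∃ x y : D, Algebra.adjoin (Subring.center D) {x, y} = ⊤ ∧
      ¬ Module.Finite (Subring.center D) D :=
  Vale.Agent.P199.kurosh

end Vale.Agent.Results.P199.Kurosh
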